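import Mathlib

/-! P267 / H868 (package XM-B1): isotypic decomposition for a linear map with `T ^ m x = x`. -/

namespace Vale.Agent.P267.H868

open Finset

section eig

variable {A : Type*} [AddCommGroup A] [Module ℂ A] (T : A →ₗ[ℂ] A)

/-- the component of `x` on which `T` acts by `ζ` (if `T ^ m x = x`, `ζ ^ m = 1`), times `m` -/
noncomputable def comp (m : ℕ) (ζ : ℂ) (x : A) : A := ∑ k ∈ range m, (ζ⁻¹) ^ k • (T ^ k) x

theorem T_comp {m : ℕ} {ζ : ℂ} (hζ : ζ ^ m = 1) (hm : 0 < m) {x : A} (hx : (T ^ m) x = x) :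
    T (comp T m ζ x) = ζ • comp T m ζ x := by
  have hne : ζ ≠ 0 := by
    rintro rfl
    rw [zero_pow hm.ne'] at hζ
    exact zero_ne_one hζ
  have h1 : ∑ k ∈ range m, (ζ⁻¹) ^ (k + 1) • (T ^ (k + 1)) x =
      ∑ k ∈ range m, (ζ⁻¹) ^ k • (T ^ k) x := by
    have h2 := sum_range_succ (fun k => (ζ⁻¹) ^ k • (T ^ k) x) m
    have h3 := sum_range_succ' (fun k => (ζ⁻¹) ^ k • (T ^ k) x) m
    rw [h2] at h3
    have h4 : (ζ⁻¹) ^ m • (T ^ m) x = (ζ⁻¹) ^ 0 • (T ^ 0) x := by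
      rw [inv_pow, hζ, hx]; simp
    rw [h4] at h3
    exact (add_right_cancel h3).symm
  rw [comp, map_sum, ← h1, smul_sum]
  refine sum_congr rfl fun k _ => ?_
  rw [map_smul, smul_smul, pow_succ' (ζ⁻¹), ← mul_assoc, mul_inv_cancel₀ hne, one_mul, pow_succ' T]
  rfl

theorem sum_comp {m : ℕ} {ζ : ℂ} (hζ : IsPrimitiveRoot ζ m) (x : A) (hm : 0 < m) :
    ∑ j ∈ range m, comp T m (ζ ^ j) x = (m : ℂ) • x := by
  simp only [comp]
  rw [sum_comm]
  have h : ∀ k ∈ range m, ∑ j ∈ range m, ((ζ ^ j)⁻¹) ^ k • (T ^ k) x =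
      if k = 0 then (m : ℂ) • x else 0 := by
    intro k hk
    rw [← sum_smul]
    split_ifs with h0
    · subst h0; simp
    · have e : ∀ j ∈ range m, ((ζ ^ j)⁻¹) ^ k = ((ζ ^ k)⁻¹) ^ j := by
        intro j _
        rw [← inv_pow, ← inv_pow, ← pow_mul, ← pow_mul, mul_comm]
      rw [sum_congr rfl e, geom_sum_eq, inv_pow, ← pow_mul, mul_comm k m, pow_mul, hζ.pow_eq_one]
      · simp
      · intro h1
        have h2 : ζ ^ k = 1 := by rw [← inv_inv (ζ ^ k), h1, inv_one]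
        exact hζ.pow_ne_one_of_pos_of_lt h0 (mem_range.1 hk) h2
  rw [sum_congr rfl h, sum_ite_eq' (range m) 0, if_pos (mem_range.2 hm)]

/-- **Isotypic decomposition.** If all eigenvectors in `S` for eigenvalues `ν`, `ν ^ m = 1`, are in
`P`, then all vectors `x` of `S` with `T ^ m x = x` are in `P`. -/
theorem mem_of_eig (S P : Submodule ℂ A) (hS : ∀ x ∈ S, T x ∈ S) {m : ℕ} (hm : 0 < m)
    (h : ∀ ν : ℂ, ν ^ m = 1 → ∀ y ∈ S, T y = ν • y → y ∈ P) {x : A} (hx : x ∈ S)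
    (hT : (T ^ m) x = x) : x ∈ P := by
  set ζ := Complex.exp (2 * Real.pi * Complex.I / m) with hζd
  have hζ : IsPrimitiveRoot ζ m := Complex.isPrimitiveRoot_exp m hm.ne'
  have hk : ∀ k : ℕ, (T ^ k) x ∈ S := by
    intro k
    induction k with
    | zero => simpa using hx
    | succ k ih =>
      rw [pow_succ']
      exact hS _ ih
  have h1 : ∑ j ∈ range m, comp T m (ζ ^ j) x ∈ P := by
    refine P.sum_mem fun j _ => ?_
    have e : (ζ ^ j) ^ m = 1 := by rw [← pow_mul, mul_comm, pow_mul, hζ.pow_eq_one, one_pow]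
    exact h _ e _ (S.sum_mem fun k _ => S.smul_mem _ (hk k)) (T_comp T e hm hT)
  rw [sum_comp T hζ x hm] at h1
  have h2 := P.smul_mem ((m : ℂ)⁻¹) h1
  rwa [smul_smul, inv_mul_cancel₀ (by exact_mod_cast hm.ne'), one_smul] at h2

end eig

end Vale.Agent.P267.H868
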